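import Vale.Agent.P207.N6.H547.AffLemA

/-!
# P207, Theorem H: rates of the flow in the affine charts, for all times `t ≥ 0`
-/

set_option maxSynthPendingDepth 3
set_option linter.unusedSectionVars false

open Set Filter Topology Metric MeasureTheory
open scoped ContDiff

noncomputable section

namespace Vale.Agent.P207.N4.W.H761

open Vale.Agent.P207.N3

variable [Dim]

variable {Γ X B : Type} [Group Γ] [MetricSpace X] [ProperSpace X] [MulAction Γ X]
  [IsIsometricSMul Γ X] [TopologicalSpace B] [CompactSpace B] [T2Space B] [MulAction Γ B]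
  [ContinuousConstSMul Γ B] {L : Leaf Γ X B} (F : Aff L)

theorem P_eq (t : ℝ) (x : X) (q : E2) : F.P t x q = F.ch (L.φ t x) (F.pt x q) := by
  rw [← F.flow t x q, F.ch_pt]

theorem P_symm_eq (t : ℝ) (x : X) (q : E2) :
    (F.P t x).symm q = F.ch x (F.pt (L.φ t x) q) := by
  have h := F.flow t x ((F.P t x).symm q)
  rw [ContinuousLinearEquiv.apply_symm_apply] at h
  rw [h, F.ch_pt]

theorem P_cont : Continuous fun p : (ℝ × X) × E2 => F.P p.1.1 p.1.2 p.2 := by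
  simp only [P_eq F]
  have h1 : Continuous fun p : (ℝ × X) × E2 => L.φ p.1.1 p.1.2 := L.φ_cont.comp continuous_fst
  have h2 : Continuous fun p : (ℝ × X) × E2 => F.pt p.1.2 p.2 :=
    F.pt_cont.comp (continuous_fst.snd.prodMk continuous_snd)
  rw [← continuousOn_univ]
  refine F.ch_cont.comp (f := fun p : (ℝ × X) × E2 => (L.φ p.1.1 p.1.2, F.pt p.1.2 p.2))
    (h1.prodMk h2).continuousOn fun p _ => ?_
  change F.pt p.1.2 p.2 ≠ L.em (L.φ p.1.1 p.1.2)
  rw [L.em_φ]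
  exact F.pt_ne _ _

theorem P_symm_cont : Continuous fun p : (ℝ × X) × E2 => (F.P p.1.1 p.1.2).symm p.2 := by
  simp only [P_symm_eq F]
  have h1 : Continuous fun p : (ℝ × X) × E2 => L.φ p.1.1 p.1.2 := L.φ_cont.comp continuous_fst
  have h2 : Continuous fun p : (ℝ × X) × E2 => F.pt (L.φ p.1.1 p.1.2) p.2 :=
    F.pt_cont.comp (h1.prodMk continuous_snd)
  rw [← continuousOn_univ]
  refine F.ch_cont.comp (f := fun p : (ℝ × X) × E2 => (p.1.2, F.pt (L.φ p.1.1 p.1.2) p.2))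
    (continuous_fst.snd.prodMk h2).continuousOn fun p _ => ?_
  change F.pt (L.φ p.1.1 p.1.2) p.2 ≠ L.em p.1.2
  rw [← L.em_φ p.1.1]
  exact F.pt_ne _ _

theorem P_smul (g : Γ) (t : ℝ) (x : X) (q : E2) : F.P t (g • x) q = F.P t x q := by
  rw [P_eq, P_eq, F.pt_smul, L.φ_smul, F.ch_smul]
  rw [L.em_φ]
  exact F.pt_ne _ _

theorem P_symm_smul (g : Γ) (t : ℝ) (x : X) (q : E2) :
    (F.P t (g • x)).symm q = (F.P t x).symm q := by
  rw [ContinuousLinearEquiv.symm_apply_eq, P_smul, ContinuousLinearEquiv.apply_symm_apply]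

theorem bd_of (L : Leaf Γ X B) {f : ℝ → X → E2 →L[ℝ] E2} (hf : Continuous fun p : (ℝ × X) × E2 => f p.1.1 p.1.2 p.2)
    (hinv : ∀ (g : Γ) t x q, f t (g • x) q = f t x q) (T : ℝ) :
    ∃ M : ℝ, 0 ≤ M ∧ ∀ t ∈ Icc (0 : ℝ) T, ∀ x q, ‖f t x q‖ ≤ M * ‖q‖ := by
  obtain ⟨K, hK, hK'⟩ := L.cocompact
  obtain ⟨M, hM⟩ := (((isCompact_Icc (a := (0 : ℝ)) (b := T)).prod hK).prod
    (isCompact_closedBall (0 : E2) 1)).exists_bound_of_continuousOn hf.continuousOn
  refine ⟨max M 0, le_max_right _ _, fun t ht x q => ?_⟩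
  obtain ⟨g, hg⟩ := hK' x
  have h1 : ‖f t x‖ ≤ max M 0 := by
    refine ContinuousLinearMap.opNorm_le_of_unit_norm (le_max_right _ _) fun w hw => ?_
    have h2 := hM ((t, g • x), w) ⟨⟨ht, hg⟩, by rw [mem_closedBall_zero_iff, hw]⟩
    simp only at h2
    rw [hinv] at h2
    exact h2.trans (le_max_left _ _)
  exact (f t x).le_of_opNorm_le h1 q

/-- rates for all times `t ≥ 0`, with a constant -/
theorem rate_all_aff {a b T : ℝ} (ha : 0 ≤ a) (hb : 0 ≤ b) (h : ∀ t, T ≤ t → ∀ x q,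
    Real.exp (a * t) * ‖q‖ ≤ ‖F.P t x q‖ ∧ ‖F.P t x q‖ ≤ Real.exp (b * t) * ‖q‖) :
    ∃ C : ℝ, 1 ≤ C ∧ ∀ t, 0 ≤ t → ∀ x q, ‖F.P t x q‖ ≤ C * Real.exp (b * t) * ‖q‖ ∧
      Real.exp (a * t) * ‖q‖ ≤ C * ‖F.P t x q‖ := by
  obtain ⟨M, hM0, hM⟩ := bd_of L (f := fun t x => (F.P t x : E2 →L[ℝ] E2)) (P_cont F)
    (P_smul F) T
  obtain ⟨M', hM'0, hM'⟩ := bd_of L (f := fun t x => ((F.P t x).symm : E2 →L[ℝ] E2))
    (P_symm_cont F) (P_symm_smul F) T
  refine ⟨max 1 (max M (Real.exp (a * T) * M')), le_max_left _ _, fun t ht x q => ?_⟩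
  have h1 : (1 : ℝ) ≤ max 1 (max M (Real.exp (a * T) * M')) := le_max_left _ _
  have hbt : 1 ≤ Real.exp (b * t) := Real.one_le_exp (mul_nonneg hb ht)
  rcases le_total T t with hT | hT
  · obtain ⟨h2, h3⟩ := h t hT x q
    refine ⟨h3.trans ?_, h2.trans (le_mul_of_one_le_left (norm_nonneg _) h1)⟩
    exact mul_le_mul_of_nonneg_right (le_mul_of_one_le_left (Real.exp_pos _).le h1) (norm_nonneg _)
  · have h2 := hM t ⟨ht, hT⟩ x q
    have h3 := hM' t ⟨ht, hT⟩ x (F.P t x q)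
    simp only [ContinuousLinearEquiv.coe_coe, ContinuousLinearEquiv.symm_apply_apply] at h2 h3
    constructor
    · refine h2.trans (mul_le_mul_of_nonneg_right ?_ (norm_nonneg _))
      exact ((le_max_left _ _).trans (le_max_right _ _)).trans
        (le_mul_of_one_le_right (zero_le_one.trans h1) hbt)
    · have h4 : Real.exp (a * t) ≤ Real.exp (a * T) :=
        Real.exp_le_exp.2 (mul_le_mul_of_nonneg_left hT ha)
      calc Real.exp (a * t) * ‖q‖ ≤ Real.exp (a * T) * (M' * ‖F.P t x q‖) :=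
            mul_le_mul h4 h3 (norm_nonneg _) (Real.exp_pos _).le
        _ = Real.exp (a * T) * M' * ‖F.P t x q‖ := by ring
        _ ≤ _ := mul_le_mul_of_nonneg_right
            ((le_max_right _ _).trans (le_max_right _ _)) (norm_nonneg _)

variable [MeasurableSpace B] [BorelSpace B] {V : Type}
  [NormedAddCommGroup V] [NormedSpace ℝ V] [FiniteDimensional ℝ V]

/-- **(RATE-ALL)** the rates of the flow in the affine charts, for all times `t ≥ 0`, up to a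
constant. -/
theorem rate_all (P : Pic L V) (hR : P.RateP) : ∃ C : ℝ, 1 ≤ C ∧ ∀ t, 0 ≤ t → ∀ x q,
    Real.exp (P.Ra.a * t) * ‖q‖ ≤ C * ‖P.Af.P t x q‖ ∧
      ‖P.Af.P t x q‖ ≤ C * Real.exp (P.Ra.b * t) * ‖q‖ := by
  obtain ⟨C, hC, h⟩ := rate_all_aff P.Af (T := P.Ra.T) P.Ra.a_pos.le
    (P.Ra.a_pos.le.trans P.Ra.a_le_b) (fun t ht x q => hR t ht x q)
  exact ⟨C, hC, fun t ht x q => ⟨(h t ht x q).2, (h t ht x q).1⟩⟩

end Vale.Agent.P207.N4.W.H761
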